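import Vale.Agent.Lib.P309.Env.Achieve

open MeasureTheory ProbabilityTheory
open scoped ENNReal
open Vale.Agent.Lib.P309.Env

namespace Vale.Agent.Results.P309.Envelope

/-- Envelope of the memory and sample region for noiseless Gaussian linear regression.
First part: if `2^(M+d) ε^(d-1) < 2/3` no horizon suffices.
Second part: fewer than `d` samples never suffice at accuracy `ε ≤ 1/(30 d)`, whatever the memory.
Third part: a quantized Kaczmarz learner with `M ≥ d log2 (17 d^2 / ε)` bits succeeds with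
any horizon `T ≥ 2 d ln (30 / ε^2)`. -/
theorem result :
    (∀ (d M T : ℕ) (ε : ℝ), 2 ≤ d → 0 < ε → ε ≤ 1 →
      (2 : ℝ) ^ (M + d) * ε ^ (d - 1) < 2 / 3 → ¬ Achievable d M T ε) ∧
    (∀ (d M T : ℕ) (ε : ℝ), 2 ≤ d → 0 < ε → ε ≤ 1 / (30 * (d : ℝ)) → T < d →
      ¬ Achievable d M T ε) ∧
    (∀ (d M T : ℕ) (ε : ℝ), 2 ≤ d → 0 < ε → ε ≤ 1 →
      (d : ℝ) * Real.logb 2 (17 * (d : ℝ) ^ 2 / ε) ≤ M →
      2 * (d : ℝ) * Real.log (30 / ε ^ 2) ≤ T → Achievable d M T ε) := by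
  have h23 : (2 / 3 : ℝ≥0∞) = ENNReal.ofReal (2 / 3) := by
    rw [ENNReal.ofReal_div_of_pos (by norm_num)]; simp
  refine ⟨?_, ?_, ?_⟩
  · rintro d M T ε hd h0 h1 hlt ⟨L, hL⟩
    have h2 := L.successProb_le (by omega) T h0 h1
    have h3 : (2 : ℝ≥0∞) ^ M = ENNReal.ofReal (2 ^ M) := by
      rw [ENNReal.ofReal_pow (by norm_num)]; simp
    rw [h3, ← ENNReal.ofReal_mul (by positivity)] at h2
    have h4 : (2 : ℝ) ^ M * (2 ^ d * ε ^ (d - 1)) = (2 : ℝ) ^ (M + d) * ε ^ (d - 1) := by ring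
    rw [h4] at h2
    have h5 := hL.trans h2
    rw [h23] at h5
    have h6 := (ENNReal.ofReal_le_ofReal_iff (by positivity)).1 h5
    linarith
  · rintro d M T ε hd h0 h1 hT ⟨L, hL⟩
    have h2 := L.successProb_le_of_lt (by omega) hT h0 h1
    have h5 := hL.trans h2
    have h7 : (13 / 20 : ℝ≥0∞) = ENNReal.ofReal (13 / 20) := by
      rw [ENNReal.ofReal_div_of_pos (by norm_num)]; simp
    rw [h23, h7] at h5
    have h6 := (ENNReal.ofReal_le_ofReal_iff (by positivity)).1 h5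
    norm_num at h6
  · intro d M T ε hd h0 h1 hM hT
    exact achievable_of_le (by omega) h0 h1 hM hT

end Vale.Agent.Results.P309.Envelope
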