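import Vale.Agent.Lib.P309.Volumetric

open MeasureTheory ProbabilityTheory
open scoped ENNReal
open Vale.Agent.Lib.P309

namespace Vale.Agent.Results.P309.VolumetricBarrier

/-- Volumetric barrier for memory bounded noiseless Gaussian linear regression.
For every learner with `M` bits in dimension `d ≥ 2` and every horizon `T`:
the model is non degenerate (the state laws are probability measures);
the success probability at accuracy `ε ≤ 1` is at most `2^(M+d) ε^(d-1)`;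
hence, if `M ≤ c d^2` and `ε ≤ 2^(-(2cd+4))`, no horizon gives success probability `2/3`. -/
theorem result (d M T : ℕ) (hd : 2 ≤ d) (L : Learner d M) :
    (∀ x s t, IsProbabilityMeasure (L.stateLaw x s t)) ∧
    (∀ ε : ℝ, 0 < ε → ε ≤ 1 →
      L.successProb T ε ≤ ENNReal.ofReal (2 ^ (M + d) * ε ^ (d - 1))) ∧
    (∀ c ε : ℝ, 0 < c → (M : ℝ) ≤ c * (d : ℝ) ^ 2 → 0 < ε →
      ε ≤ (2 : ℝ) ^ (-(2 * c * d + 4)) → L.successProb T ε < 2 / 3) := by
  have h2 : ∀ ε : ℝ, 0 < ε → ε ≤ 1 →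
      L.successProb T ε ≤ ENNReal.ofReal (2 ^ (M + d) * ε ^ (d - 1)) := by
    intro ε h0 h1
    refine (L.successProb_le (by omega) T h0 h1).trans (le_of_eq ?_)
    have : (2 : ℝ≥0∞) ^ M = ENNReal.ofReal (2 ^ M) := by
      rw [ENNReal.ofReal_pow (by norm_num)]; simp
    rw [this, ← ENNReal.ofReal_mul (by positivity)]
    congr 1
    ring
  refine ⟨fun x s t => L.stateLaw_prob x s t, h2, ?_⟩
  intro c ε hc hM h0 hε
  have hdR : (2 : ℝ) ≤ d := by exact_mod_cast hd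
  have he0 : (2 : ℝ) ^ (-(2 * c * d + 4)) ≤ 1 := by
    apply Real.rpow_le_one_of_one_le_of_nonpos (by norm_num)
    nlinarith
  have h1 : ε ≤ 1 := hε.trans he0
  refine (h2 ε h0 h1).trans_lt ?_
  have key : (2 : ℝ) ^ (M + d) * ε ^ (d - 1) ≤ 1 / 4 := by
    have e1 : ε ^ (d - 1) ≤ ((2 : ℝ) ^ (-(2 * c * d + 4))) ^ (d - 1) :=
      pow_le_pow_left₀ h0.le hε _
    have e2 : ((2 : ℝ) ^ (-(2 * c * d + 4))) ^ (d - 1) = (2 : ℝ) ^ (-(2 * c * d + 4) * ((d : ℝ) - 1)) := by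
      rw [← Real.rpow_natCast, ← Real.rpow_mul (by norm_num)]
      congr 1
      rw [Nat.cast_sub (by omega)]
      simp
    have e3 : (2 : ℝ) ^ (M + d) = (2 : ℝ) ^ ((M : ℝ) + d) := by
      rw [← Real.rpow_natCast]; push_cast; rfl
    calc (2 : ℝ) ^ (M + d) * ε ^ (d - 1)
        ≤ (2 : ℝ) ^ ((M : ℝ) + d) * (2 : ℝ) ^ (-(2 * c * d + 4) * ((d : ℝ) - 1)) := by
          rw [e3, ← e2]; gcongr
      _ = (2 : ℝ) ^ ((M : ℝ) + d + -(2 * c * d + 4) * ((d : ℝ) - 1)) := by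
          rw [← Real.rpow_add (by norm_num)]
      _ ≤ (2 : ℝ) ^ (-2 : ℝ) := by
          apply Real.rpow_le_rpow_of_exponent_le (by norm_num)
          nlinarith [mul_nonneg hc.le (mul_nonneg (by linarith : (0:ℝ) ≤ d) (by linarith : (0:ℝ) ≤ (d:ℝ) - 2))]
      _ = 1 / 4 := by
          rw [Real.rpow_neg (by norm_num)]; norm_num
  calc ENNReal.ofReal (2 ^ (M + d) * ε ^ (d - 1)) ≤ ENNReal.ofReal (1 / 4) :=
        ENNReal.ofReal_le_ofReal key
    _ < 2 / 3 := by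
        rw [show (2 / 3 : ℝ≥0∞) = ENNReal.ofReal (2 / 3) by
          rw [ENNReal.ofReal_div_of_pos (by norm_num)]; simp]
        exact (ENNReal.ofReal_lt_ofReal_iff (by norm_num)).2 (by norm_num)

end Vale.Agent.Results.P309.VolumetricBarrier
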